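import Vale.Agent.P021.H45.BaseDefs
import Vale.Agent.P021.H59.Base

/-!
# Meaning of the kernel program for the base range
-/

namespace Vale.Agent.P021.H45

open Finset

theorem qv_eq : qv = H59.PP := by decide +kernel

theorem ql_eq : ql = H59.ps := rfl

theorem tt_eq {m : ℕ} (h1 : 1000 < m) (h2 : m < 1001 * 1001) :
    tt m = if m.Prime then m else 1 := by
  have h := H59.ee_eq h1 h2
  rw [H59.ee, ← qv_eq] at h
  exact h

theorem pr_zero (a : ℕ) : pr 0 a = tt (a + 1) * tt (a + 5) := rfl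

theorem pr_succ (d a : ℕ) : pr (d + 1) a = pr d a * pr d (a + 6 * 2 ^ d) := rfl

theorem pr_spec (d : ℕ) : ∀ a, a % 6 = 0 → 1000 < a → a + 6 * 2 ^ d < 1001 * 1001 →
    pr d a = ∏ m ∈ Ioc a (a + 6 * 2 ^ d), if m.Prime then m else 1 := by
  induction d with
  | zero =>
    intro a h6 h1 h2
    have e : a + 6 * 2 ^ 0 = a + 1 + 1 + 1 + 1 + 1 + 1 := by ring
    have n2 : ¬ (a + 1 + 1).Prime :=
      Nat.not_prime_of_dvd_of_lt (m := 2) (by omega) (by omega) (by omega)
    have n3 : ¬ (a + 1 + 1 + 1).Prime :=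
      Nat.not_prime_of_dvd_of_lt (m := 3) (by omega) (by omega) (by omega)
    have n4 : ¬ (a + 1 + 1 + 1 + 1).Prime :=
      Nat.not_prime_of_dvd_of_lt (m := 2) (by omega) (by omega) (by omega)
    have n6 : ¬ (a + 1 + 1 + 1 + 1 + 1 + 1).Prime :=
      Nat.not_prime_of_dvd_of_lt (m := 2) (by omega) (by omega) (by omega)
    rw [pr_zero, tt_eq (by omega) (by omega), tt_eq (by omega) (by omega), e,
      Finset.prod_Ioc_succ_top (by omega), Finset.prod_Ioc_succ_top (by omega),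
      Finset.prod_Ioc_succ_top (by omega), Finset.prod_Ioc_succ_top (by omega),
      Finset.prod_Ioc_succ_top (by omega), Finset.prod_Ioc_succ_top (by omega),
      if_neg n2, if_neg n3, if_neg n4, if_neg n6, Ioc_self, prod_empty]
    simp only [one_mul, mul_one]
  | succ d ih =>
    intro a h6 h1 h2
    have e : 2 ^ (d + 1) = 2 ^ d + 2 ^ d := by ring
    have hp : 0 < 2 ^ d := by positivity
    rw [pr_succ, ih a h6 h1 (by omega), ih (a + 6 * 2 ^ d) (by omega) (by omega) (by omega), e,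
      Finset.prod_Ioc_consecutive _ (by omega) (by omega)]
    congr 2
    ring

theorem log_pr (d a : ℕ) (h6 : a % 6 = 0) (h1 : 1000 < a) (h2 : a + 6 * 2 ^ d < 1001 * 1001) :
    0 < pr d a ∧ Real.log (pr d a) =
      ∑ m ∈ Ioc a (a + 6 * 2 ^ d), if m.Prime then Real.log m else 0 := by
  have hpos : ∀ m ∈ Ioc a (a + 6 * 2 ^ d), 0 < (if m.Prime then m else 1 : ℕ) := by
    intro m hm
    rw [mem_Ioc] at hm
    split_ifs <;> omega
  rw [pr_spec d a h6 h1 h2]
  refine ⟨Finset.prod_pos hpos, ?_⟩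
  rw [Nat.cast_prod, Real.log_prod]
  · apply Finset.sum_congr rfl
    intro m _
    split_ifs
    · rfl
    · rw [Nat.cast_one, Real.log_one]
  · intro m hm
    exact_mod_cast (hpos m hm).ne'

theorem pex_nil (a b : ℕ) : pex a b [] = 1 := rfl

theorem pex_cons (a b : ℕ) (e : ℕ × ℕ) (l : List (ℕ × ℕ)) : pex a b (e :: l) =
    (cond (Nat.blt a e.1) (cond (Nat.ble e.1 b) e.2 1) 1) * pex a b l := rfl

theorem pp_pow : ∀ e ∈ pp, e.2 ∈ ql ∧ ∃ k ∈ List.range 20, 2 ≤ k ∧ e.1 = e.2 ^ k := by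
  decide +kernel

theorem pp_complete : ∀ p ∈ ql, ∀ k ∈ List.range 20, 2 ≤ k → 1998 < p ^ k → p ^ k ≤ 1000014 →
    (p ^ k, p) ∈ pp := by
  decide +kernel

theorem pp_nodup : (pp.map Prod.fst).Nodup := by decide +kernel

/-- the part of the von Mangoldt function on proper prime powers -/
noncomputable def gg (n : ℕ) : ℝ := if n.Prime then 0 else ArithmeticFunction.vonMangoldt n

theorem gg_pp {e : ℕ × ℕ} (he : e ∈ pp) : gg e.1 = Real.log e.2 ∧ 0 < e.2 := by
  obtain ⟨h1, k, _, h2, h3⟩ := pp_pow e he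
  have hp : e.2.Prime := H59.prime_of_mem (by rwa [ql_eq] at h1)
  have hn : ¬ (e.1).Prime := by
    rw [h3]
    exact Nat.Prime.not_prime_pow h2
  refine ⟨?_, hp.pos⟩
  rw [gg, if_neg hn, h3, ArithmeticFunction.vonMangoldt_apply_pow (by omega),
    ArithmeticFunction.vonMangoldt_apply_prime hp]

theorem gg_ne {n : ℕ} (h1 : 1998 < n) (h2 : n ≤ 1000014) (h : gg n ≠ 0) :
    n ∈ pp.map Prod.fst := by
  unfold gg at h
  split_ifs at h with hp
  · exact absurd rfl h
  · rw [ArithmeticFunction.vonMangoldt_ne_zero_iff, isPrimePow_nat_iff] at h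
    obtain ⟨p, k, hpp, hk, rfl⟩ := h
    have hk2 : 2 ≤ k := by
      by_contra hc
      have : k = 1 := by omega
      subst this
      exact hp (by rwa [pow_one])
    have hk20 : k < 20 := by
      by_contra hc
      have h3 : 2 ^ 20 ≤ p ^ k := calc
        2 ^ 20 ≤ 2 ^ k := Nat.pow_le_pow_right (by omega) (by omega)
        _ ≤ p ^ k := Nat.pow_le_pow_left hpp.two_le k
      omega
    have hp1000 : p ≤ 1000 := by
      by_contra hc
      have h3 : 1001 ^ 2 ≤ p ^ k := calc
        1001 ^ 2 ≤ p ^ 2 := Nat.pow_le_pow_left (by omega) 2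
        _ ≤ p ^ k := Nat.pow_le_pow_right hpp.pos hk2
      omega
    have hm : p ∈ ql := by
      rw [ql_eq]
      exact H59.mem_of_prime hpp hp1000
    have := pp_complete p hm k (List.mem_range.2 hk20) hk2 h1 h2
    exact List.mem_map.2 ⟨_, this, rfl⟩

theorem pex_list (a b : ℕ) : ∀ l : List (ℕ × ℕ), (∀ e ∈ l, gg e.1 = Real.log e.2 ∧ 0 < e.2) →
    0 < pex a b l ∧ Real.log (pex a b l) =
      ((l.map Prod.fst).map fun n => if n ∈ Ioc a b then gg n else 0).sum := by
  intro l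
  induction l with
  | nil =>
    intro _
    rw [pex_nil]
    simp
  | cons e l ih =>
    intro hl
    obtain ⟨h1, h2⟩ := ih fun x hx => hl x (List.mem_cons_of_mem _ hx)
    obtain ⟨h3, h4⟩ := hl e List.mem_cons_self
    have key : 0 < (cond (Nat.blt a e.1) (cond (Nat.ble e.1 b) e.2 1) 1 : ℕ) ∧
        Real.log ((cond (Nat.blt a e.1) (cond (Nat.ble e.1 b) e.2 1) 1 : ℕ) : ℝ) =
          if e.1 ∈ Ioc a b then gg e.1 else 0 := by
      by_cases ha : a < e.1
      · have ha' : Nat.blt a e.1 = true := Nat.ble_eq_true_of_le ha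
        by_cases hb : e.1 ≤ b
        · have hb' : Nat.ble e.1 b = true := Nat.ble_eq_true_of_le hb
          rw [ha', hb', if_pos (mem_Ioc.2 ⟨ha, hb⟩), h3]
          exact ⟨h4, rfl⟩
        · have hb' : Nat.ble e.1 b = false := by
            rw [← Bool.not_eq_true]
            exact fun h5 => hb (Nat.le_of_ble_eq_true h5)
          rw [ha', hb', if_neg fun h => hb (mem_Ioc.1 h).2]
          simp
      · have ha' : Nat.blt a e.1 = false := by
          rw [← Bool.not_eq_true]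
          exact fun h5 => ha (Nat.le_of_ble_eq_true h5)
        rw [ha', if_neg fun h => ha (mem_Ioc.1 h).1]
        simp
    rw [pex_cons, List.map_cons, List.map_cons, List.sum_cons, Nat.cast_mul,
      Real.log_mul (by exact_mod_cast key.1.ne') (by exact_mod_cast h1.ne'), key.2, h2]
    exact ⟨Nat.mul_pos key.1 h1, rfl⟩

theorem log_pex {a b : ℕ} (h1 : 1998 ≤ a) (h2 : b ≤ 1000014) :
    0 < pex a b pp ∧ Real.log (pex a b pp) = ∑ n ∈ Ioc a b, gg n := by
  obtain ⟨h3, h4⟩ := pex_list a b pp fun e he => gg_pp he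
  refine ⟨h3, ?_⟩
  rw [h4, ← List.sum_toFinset _ pp_nodup, ← Finset.sum_filter]
  apply Finset.sum_subset
  · intro n hn
    exact (mem_filter.1 hn).2
  · intro n hn hn'
    by_contra h
    apply hn'
    have h5 := mem_Ioc.1 hn
    exact mem_filter.2 ⟨List.mem_toFinset.2 (gg_ne (by omega) (by omega) h), hn⟩

/-- one block of the Chebyshev function -/
theorem psi_block {a b : ℕ} (hab : a ≤ b) : Chebyshev.psi b = Chebyshev.psi a +
    ((∑ m ∈ Ioc a b, if m.Prime then Real.log m else 0) + ∑ n ∈ Ioc a b, gg n) := by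
  rw [Chebyshev.psi, Chebyshev.psi, Nat.floor_natCast, Nat.floor_natCast,
    ← Finset.sum_Ioc_consecutive _ (Nat.zero_le a) hab, ← Finset.sum_add_distrib]
  congr 1
  apply Finset.sum_congr rfl
  intro n _
  unfold gg
  split_ifs with h
  · rw [ArithmeticFunction.vonMangoldt_apply_prime h, add_zero]
  · rw [zero_add]

/-- the value carried by the kernel program -/
theorem log_step {d a M : ℕ} (h6 : a % 6 = 0) (h1 : 1998 ≤ a) (h2 : a + 6 * 2 ^ d ≤ 1000014)
    (hM : 0 < M) (h : Real.log M = Chebyshev.psi a) :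
    0 < M * (pr d a * pex a (a + 6 * 2 ^ d) pp) ∧
      Real.log ((M * (pr d a * pex a (a + 6 * 2 ^ d) pp) : ℕ) : ℝ) =
        Chebyshev.psi ((a + 6 * 2 ^ d : ℕ) : ℝ) := by
  obtain ⟨h3, h4⟩ := log_pr d a h6 (by omega) (by omega)
  obtain ⟨h5, h7⟩ := log_pex (a := a) (b := a + 6 * 2 ^ d) h1 h2
  refine ⟨Nat.mul_pos hM (Nat.mul_pos h3 h5), ?_⟩
  rw [Nat.cast_mul, Nat.cast_mul, Real.log_mul (by exact_mod_cast hM.ne')
    (by exact_mod_cast (Nat.mul_pos h3 h5).ne'), Real.log_mul (by exact_mod_cast h3.ne')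
    (by exact_mod_cast h5.ne'), h, h4, h7, psi_block (a := a) (b := a + 6 * 2 ^ d) (by omega)]

end Vale.Agent.P021.H45
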