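import Vale.Agent.P021.H45.BaseChk
import Vale.Agent.P021.H45.BaseNum

/-!
# The base range of the explicit Chebyshev bounds
-/

namespace Vale.Agent.P021.H45

open Finset

theorem fc_eq (n : ℕ) (f : ℕ → Bool) : fc n f = f n := by
  cases n <;> rfl

theorem le_log_of_pow {k M : ℕ} (h : 2 ^ k ≤ M) : (k : ℝ) * Real.log 2 ≤ Real.log M := by
  rw [← Real.log_pow]
  apply Real.log_le_log (by positivity)
  exact_mod_cast h

theorem log_le_of_pow {k M : ℕ} (hM : 0 < M) (h : M ≤ 2 ^ k) :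
    Real.log M ≤ (k : ℝ) * Real.log 2 := by
  rw [← Real.log_pow]
  apply Real.log_le_log (by exact_mod_cast hM)
  exact_mod_cast h

theorem cond_false_iff {b c : Bool} : cond b c false = true ↔ b = true ∧ c = true := by
  cases b <;> simp

theorem okb_spec {a b M M' : ℕ} (hM' : 0 < M') (h : okb a b M M' = true) :
    0.984 * (b : ℝ) ≤ Real.log M ∧ Real.log M' ≤ 1.0162 * (a : ℝ) := by
  have h' : Nat.ble (2 ^ (9840000000 * b / 6931471803 + 1)) M = true ∧
      Nat.ble M' (2 ^ (10162000000 * a / 6931471808)) = true := cond_false_iff.1 h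
  have h1 := le_log_of_pow (Nat.le_of_ble_eq_true h'.1)
  have h2 := log_le_of_pow hM' (Nat.le_of_ble_eq_true h'.2)
  have l1 := Real.log_two_gt_d9
  have l2 := Real.log_two_lt_d9
  constructor
  · have h3 : 9840000000 * b < (9840000000 * b / 6931471803 + 1) * 6931471803 := by
      have := Nat.lt_div_mul_add (a := 9840000000 * b) (b := 6931471803) (by norm_num)
      omega
    have h4 : (9840000000 * (b : ℝ)) ≤
        ((9840000000 * b / 6931471803 + 1 : ℕ) : ℝ) * 6931471803 := by exact_mod_cast h3.le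
    generalize ((9840000000 * b / 6931471803 + 1 : ℕ) : ℝ) = t at h1 h4
    have hb : (0 : ℝ) ≤ b := Nat.cast_nonneg b
    have ht : 0 ≤ t := by nlinarith
    nlinarith
  · have h3 : 10162000000 * a / 6931471808 * 6931471808 ≤ 10162000000 * a :=
      Nat.div_mul_le_self _ _
    have h4 : ((10162000000 * a / 6931471808 : ℕ) : ℝ) * 6931471808 ≤
        10162000000 * (a : ℝ) := by exact_mod_cast h3
    have ht : (0 : ℝ) ≤ ((10162000000 * a / 6931471808 : ℕ) : ℝ) := Nat.cast_nonneg _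
    generalize ((10162000000 * a / 6931471808 : ℕ) : ℝ) = t at h2 h4 ht
    nlinarith

theorem okl_spec {n M : ℕ} (hM : 0 < M) (h : okl n M = true) :
    Real.log M ≤ 1.04 * (n : ℝ) := by
  have h' : M * M ≤ 2 ^ (20800000000 * n / 6931471808) := Nat.le_of_ble_eq_true h
  have h2 := log_le_of_pow (Nat.mul_pos hM hM) h'
  have l2 := Real.log_two_lt_d9
  have h3 : 20800000000 * n / 6931471808 * 6931471808 ≤ 20800000000 * n :=
    Nat.div_mul_le_self _ _
  have h4 : ((20800000000 * n / 6931471808 : ℕ) : ℝ) * 6931471808 ≤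
      20800000000 * (n : ℝ) := by exact_mod_cast h3
  have ht : (0 : ℝ) ≤ ((20800000000 * n / 6931471808 : ℕ) : ℝ) := Nat.cast_nonneg _
  generalize ((20800000000 * n / 6931471808 : ℕ) : ℝ) = t at h2 h4 ht
  have hM0 : (M : ℝ) ≠ 0 := by exact_mod_cast hM.ne'
  rw [Nat.cast_mul, Real.log_mul hM0 hM0] at h2
  nlinarith

/-- the end of the run -/
def aend : List ℕ → ℕ → ℕ
  | [], a => a
  | d :: l, a => aend l (a + 6 * 2 ^ d)

theorem le_aend : ∀ (l : List ℕ) (a : ℕ), a ≤ aend l a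
  | [], a => le_refl a
  | d :: l, a => le_trans (Nat.le_add_right a _) (le_aend l (a + 6 * 2 ^ d))

theorem aend_blocks : aend blocks 1998 = 1000014 := by decide +kernel

theorem cw_cons (d : ℕ) (l : List ℕ) (a M : ℕ) : cw (d :: l) a M =
    fc (a + 6 * 2 ^ d) fun b => fc (M * (pr d a * pex a b pp)) fun M' =>
      cond (okb a b M M') (cw l b M') false := rfl

theorem cw_spec : ∀ (l : List ℕ) (a M : ℕ), a % 6 = 0 → 1998 ≤ a → aend l a ≤ 1000014 →
    0 < M → Real.log M = Chebyshev.psi a → cw l a M = true → ∀ x : ℝ, (a : ℝ) ≤ x →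
    x < (aend l a : ℕ) → 0.984 * x ≤ Chebyshev.psi x ∧ Chebyshev.psi x ≤ 1.0162 * x := by
  intro l
  induction l with
  | nil =>
    intro a M _ _ _ _ _ _ x h1 h2
    exact absurd (lt_of_le_of_lt h1 h2) (lt_irrefl _)
  | cons d l ih =>
    intro a M h6 ha hend hM hlog hrun x hx hx'
    rw [cw_cons, fc_eq, fc_eq, cond_false_iff] at hrun
    have hle := le_aend l (a + 6 * 2 ^ d)
    have hend' : aend l (a + 6 * 2 ^ d) ≤ 1000014 := hend
    obtain ⟨h3, h4⟩ := log_step (d := d) h6 ha (le_trans hle hend') hM hlog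
    obtain ⟨h5, h7⟩ := okb_spec h3 hrun.1
    by_cases hxb : x < ((a + 6 * 2 ^ d : ℕ) : ℝ)
    · have m1 := Chebyshev.psi_mono hx
      have m2 := Chebyshev.psi_mono hxb.le
      rw [h4] at h7
      rw [hlog] at h5
      constructor <;> linarith
    · exact ih (a + 6 * 2 ^ d) _ (by omega) (by omega) hend' h3 h4 hrun.2 x
        (not_lt.1 hxb) hx'

theorem lcmUpto_succ (n : ℕ) :
    Nat.lcmUpto (n + 1) = Nat.lcm (Nat.lcmUpto n) (n + 1) := by
  have e : Icc 1 (n + 1) = insert (n + 1) (Icc 1 n) := by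
    ext m
    simp only [mem_Icc, mem_insert]
    omega
  unfold Nat.lcmUpto
  rw [e, Finset.lcm_insert, id_eq]
  exact Nat.lcm_comm _ _

theorem lw_succ (k : ℕ → Bool) (f n M : ℕ) : lw k (f + 1) n M =
    fc (n + 1) fun n' => fc (M * n' / Nat.gcd M n') fun M' =>
      cond (okl n' M') (lw k f n' M') false := rfl

theorem lw_spec (k : ℕ → Bool) : ∀ (f n : ℕ), lw k f n (Nat.lcmUpto n) = true →
    (∀ m, n < m → m ≤ n + f → Chebyshev.psi m ≤ 1.04 * (m : ℝ)) ∧
      k (Nat.lcmUpto (n + f)) = true := by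
  intro f
  induction f with
  | zero =>
    intro n h
    exact ⟨fun m h1 h2 => by omega, h⟩
  | succ f ih =>
    intro n h
    rw [lw_succ, fc_eq, fc_eq, cond_false_iff] at h
    have e : Nat.lcmUpto n * (n + 1) / Nat.gcd (Nat.lcmUpto n) (n + 1) =
      Nat.lcmUpto (n + 1) := by rw [lcmUpto_succ]; rfl
    rw [e] at h
    obtain ⟨h1, h2⟩ := ih (n + 1) h.2
    have h3 := okl_spec (Nat.lcmUpto_pos _) h.1
    rw [← Chebyshev.psi_eq_log_lcmUpto] at h3
    refine ⟨fun m hm hm' => ?_, by rwa [show n + (f + 1) = n + 1 + f by ring]⟩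
    rcases Nat.lt_or_ge (n + 1) m with h4 | h4
    · exact h1 m h4 (by omega)
    · rw [show m = n + 1 by omega]
      exact h3

theorem base_all : (∀ m : ℕ, 0 < m → m ≤ 1998 → Chebyshev.psi m ≤ 1.04 * (m : ℝ)) ∧
    ∀ x : ℝ, 1998 ≤ x → x < 1000014 →
      0.984 * x ≤ Chebyshev.psi x ∧ Chebyshev.psi x ≤ 1.0162 * x := by
  have h0 : Nat.lcmUpto 0 = 1 := rfl
  have h := run
  rw [← h0] at h
  obtain ⟨h1, h2⟩ := lw_spec _ 1998 0 h
  refine ⟨fun m h3 h4 => h1 m h3 (by omega), fun x hx hx' => ?_⟩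
  rw [Nat.zero_add] at h2
  have h5 := cw_spec blocks 1998 (Nat.lcmUpto 1998) (by norm_num) (le_refl _)
    aend_blocks.le (Nat.lcmUpto_pos _) (Chebyshev.psi_eq_log_lcmUpto _).symm h2 x
    (by exact_mod_cast hx)
  rw [aend_blocks] at h5
  exact h5 (by exact_mod_cast hx')

/-- **The base range.** -/
theorem base2 : (∀ x : ℝ, 2000 ≤ x → x ≤ 1000000 →
      0.984 * x ≤ Chebyshev.psi x ∧ Chebyshev.psi x ≤ 1.0162 * x) ∧
    ∀ x : ℝ, 0 ≤ x → x ≤ 1000000 → Chebyshev.psi x ≤ 1.04 * x := by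
  refine ⟨fun x h1 h2 => base_all.2 x (by linarith) (by linarith), fun x h1 h2 => ?_⟩
  by_cases h : x < 1998
  · have h3 : ⌊x⌋₊ ≤ 1998 := by
      have := Nat.floor_le h1
      by_contra hc
      have h4 : (1999 : ℝ) ≤ (⌊x⌋₊ : ℝ) := by exact_mod_cast (by omega : 1999 ≤ ⌊x⌋₊)
      linarith
    rw [Chebyshev.psi_eq_psi_coe_floor]
    rcases Nat.eq_zero_or_pos ⌊x⌋₊ with h4 | h4
    · rw [h4, Nat.cast_zero, Chebyshev.psi_zero]
      positivity
    · have h5 := base_all.1 _ h4 h3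
      have h6 := Nat.floor_le h1
      linarith
  · have := (base_all.2 x (not_lt.1 h) (by linarith)).2
    linarith

end Vale.Agent.P021.H45
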