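import Vale.Agent.P021.H45.BaseDefs

namespace Vale.Agent.P021.H45

/-- the complete run -/
theorem run : lw (fun M => cw blocks 1998 M) 1998 0 1 = true := by decide +kernel

end Vale.Agent.P021.H45
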