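import Vale.Agent.P021.H45.BaseData

/-!
# The kernel program for the base range
-/

namespace Vale.Agent.P021.H45

/-- `n` if coprime to the primes up to `1000`, else `1` -/
def tt (n : ℕ) : ℕ := cond (Nat.beq (Nat.gcd n qv) 1) n 1

/-- product of the primes in the block of length `6 * 2 ^ d` after `a` -/
noncomputable def pr (d : ℕ) : ℕ → ℕ :=
  Nat.rec (motive := fun _ => ℕ → ℕ) (fun a => Nat.mul (tt (Nat.add a 1)) (tt (Nat.add a 5)))
    (fun e ih a => Nat.mul (ih a) (ih (Nat.add a (Nat.mul 6 (Nat.pow 2 e))))) d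

/-- product of the primes `p` over the proper prime powers in the block -/
noncomputable def pex (a b : ℕ) (l : List (ℕ × ℕ)) : ℕ :=
  List.rec (motive := fun _ => ℕ) 1
    (fun e _ ih => Nat.mul (cond (Nat.blt a e.1) (cond (Nat.ble e.1 b) e.2 1) 1) ih) l

/-- forcing a natural number -/
noncomputable def fc (n : ℕ) (f : ℕ → Bool) : Bool :=
  Nat.rec (motive := fun _ => Bool) (f 0) (fun k _ => f (Nat.succ k)) n

/-- the two inequalities for the block from `a` to `b`, `M = exp (psi a)`, `M' = exp (psi b)` -/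
def okb (a b M M' : ℕ) : Bool :=
  cond (Nat.ble (Nat.pow 2 (Nat.succ (Nat.div (Nat.mul 9840000000 b) 6931471803))) M)
    (Nat.ble M' (Nat.pow 2 (Nat.div (Nat.mul 10162000000 a) 6931471808))) false

/-- the run over the blocks -/
noncomputable def cw (l : List ℕ) : ℕ → ℕ → Bool :=
  List.rec (motive := fun _ => ℕ → ℕ → Bool) (fun _ _ => true)
    (fun d _ ih a M => fc (Nat.add a (Nat.mul 6 (Nat.pow 2 d))) fun b =>
      fc (Nat.mul M (Nat.mul (pr d a) (pex a b pp))) fun M' =>
        cond (okb a b M M') (ih b M') false) l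

/-- the inequality for a small number `n`, `M = exp (psi n)` -/
def okl (n M : ℕ) : Bool :=
  Nat.ble (Nat.mul M M) (Nat.pow 2 (Nat.div (Nat.mul 20800000000 n) 6931471808))

/-- the run over the small numbers -/
noncomputable def lw (k : ℕ → Bool) (f : ℕ) : ℕ → ℕ → Bool :=
  Nat.rec (motive := fun _ => ℕ → ℕ → Bool) (fun _ M => k M)
    (fun _ ih n M => fc (Nat.succ n) fun n' =>
      fc (Nat.div (Nat.mul M n') (Nat.gcd M n')) fun M' =>
        cond (okl n' M') (ih n' M') false) f

end Vale.Agent.P021.H45
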