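import Vale.Agent.P021.Eff.Final2
import Vale.Agent.P021.Eff.B2
import Vale.Agent.P021.H159.RowA2B
import Vale.Agent.P021.H45.Base

/-!
# The explicit irrationality measure of `π`, exponent `13 / 2`
-/

namespace Vale.Agent.P021.H45

theorem fin2 (p q : ℤ) (hq : 2 ≤ q) :
    1 / (q : ℝ) ^ (13 / 2 : ℝ) < |Real.pi - (p : ℝ) / (q : ℝ)| := by
  have h := H159.rowA2_of_base2 base2
  have hN : (10 : ℤ) ^ 250000 ≤ 10 ^ 300000 :=
    pow_le_pow_right₀ (by norm_num) (by norm_num)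
  exact Eff.goal2_of hN (fun p q h2 hq => Eff.small2 p q h2 hq) h.1 h.2 p q hq

end Vale.Agent.P021.H45
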