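import Vale.Agent.P021.Bdl.B3

/-!
# Numeric bounds on the path and on the polygon: size of `tau` and the lengths
-/

namespace Vale.Agent.P021.H45

open Vale.Agent.P021 Vale.Agent.P021.Det

theorem tau_seg {u v : ℂ} {B : ℝ} (h1 : ‖u ^ 2 - 25‖ ≤ B) (h2 : ‖v ^ 2 - 25‖ ≤ B)
    (h3 : ‖u * v - 25‖ ≤ B) : ∀ s ∈ segment ℝ u v, ‖tau s‖ ≤ B := by
  rintro s ⟨a, b, ha, hb, hab, rfl⟩
  have e : tau (a • u + b • v) =
      ((a ^ 2 : ℝ) : ℂ) * (u ^ 2 - 25) + ((2 * a * b : ℝ) : ℂ) * (u * v - 25) +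
        ((b ^ 2 : ℝ) : ℂ) * (v ^ 2 - 25) := by
    have hb' : (b : ℂ) = 1 - a := by
      have h : (a : ℂ) + (b : ℂ) = 1 := by exact_mod_cast hab
      linear_combination h
    unfold tau
    simp only [Complex.real_smul]
    push_cast
    rw [hb']
    ring
  rw [e]
  have n1 : ‖((a ^ 2 : ℝ) : ℂ) * (u ^ 2 - 25)‖ ≤ a ^ 2 * B := by
    rw [norm_mul, Complex.norm_real, Real.norm_of_nonneg (by positivity)]
    exact mul_le_mul_of_nonneg_left h1 (by positivity)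
  have n2 : ‖((2 * a * b : ℝ) : ℂ) * (u * v - 25)‖ ≤ 2 * a * b * B := by
    rw [norm_mul, Complex.norm_real, Real.norm_of_nonneg (by positivity)]
    exact mul_le_mul_of_nonneg_left h3 (by positivity)
  have n3 : ‖((b ^ 2 : ℝ) : ℂ) * (v ^ 2 - 25)‖ ≤ b ^ 2 * B := by
    rw [norm_mul, Complex.norm_real, Real.norm_of_nonneg (by positivity)]
    exact mul_le_mul_of_nonneg_left h2 (by positivity)
  have hB : a ^ 2 * B + 2 * a * b * B + b ^ 2 * B = B := by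
    have : a ^ 2 * B + 2 * a * b * B + b ^ 2 * B = (a + b) ^ 2 * B := by ring
    rw [this, hab, one_pow, one_mul]
  have h4 := norm_add₃_le (a := ((a ^ 2 : ℝ) : ℂ) * (u ^ 2 - 25))
    (b := ((2 * a * b : ℝ) : ℂ) * (u * v - 25)) (c := ((b ^ 2 : ℝ) : ℂ) * (v ^ 2 - 25))
  linarith only [h4, n1, n2, n3, hB]

theorem norm_le_of_sq {z : ℂ} {B : ℝ} (hB : 0 ≤ B) (h : z.re ^ 2 + z.im ^ 2 ≤ B ^ 2) :
    ‖z‖ ≤ B := by
  apply le_of_sq_le_sq _ hB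
  rw [Complex.sq_norm, Complex.normSq_apply]
  linarith only [h]

theorem pnt10_re (u : ℤ × ℤ) : (pnt10 u).re = (u.1 : ℝ) / 2 ^ 10 := by
  simp only [pnt10, Complex.add_re, Complex.ofReal_re, Complex.re_ofReal_mul, Complex.I_re,
    mul_zero, add_zero]

theorem pnt10_im (u : ℤ × ℤ) : (pnt10 u).im = (u.2 : ℝ) / 2 ^ 10 := by
  simp only [pnt10, Complex.add_im, Complex.ofReal_im, Complex.im_ofReal_mul, Complex.I_im,
    mul_one, zero_add]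

theorem mul_bd (u v : ℤ × ℤ) {B : ℝ} (hB : 0 ≤ B)
    (h : ((u.1 : ℝ) / 2 ^ 10 * ((v.1 : ℝ) / 2 ^ 10) - (u.2 : ℝ) / 2 ^ 10 * ((v.2 : ℝ) / 2 ^ 10) - 25) ^ 2 +
      ((u.1 : ℝ) / 2 ^ 10 * ((v.2 : ℝ) / 2 ^ 10) + (u.2 : ℝ) / 2 ^ 10 * ((v.1 : ℝ) / 2 ^ 10)) ^ 2 ≤ B ^ 2) :
    ‖pnt10 u * pnt10 v - 25‖ ≤ B := by
  apply norm_le_of_sq hB
  have e1 : (pnt10 u * pnt10 v - 25).re =
      (u.1 : ℝ) / 2 ^ 10 * ((v.1 : ℝ) / 2 ^ 10) - (u.2 : ℝ) / 2 ^ 10 * ((v.2 : ℝ) / 2 ^ 10) - 25 := by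
    rw [Complex.sub_re, Complex.mul_re, pnt10_re, pnt10_re, pnt10_im, pnt10_im]
    norm_num
  have e2 : (pnt10 u * pnt10 v - 25).im =
      (u.1 : ℝ) / 2 ^ 10 * ((v.2 : ℝ) / 2 ^ 10) + (u.2 : ℝ) / 2 ^ 10 * ((v.1 : ℝ) / 2 ^ 10) := by
    rw [Complex.sub_im, Complex.mul_im, pnt10_re, pnt10_re, pnt10_im, pnt10_im]
    norm_num
  rw [e1, e2]
  exact h

theorem sq_bd (u : ℤ × ℤ) {B : ℝ} (hB : 0 ≤ B)
    (h : ((u.1 : ℝ) / 2 ^ 10 * ((u.1 : ℝ) / 2 ^ 10) - (u.2 : ℝ) / 2 ^ 10 * ((u.2 : ℝ) / 2 ^ 10) - 25) ^ 2 +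
      ((u.1 : ℝ) / 2 ^ 10 * ((u.2 : ℝ) / 2 ^ 10) + (u.2 : ℝ) / 2 ^ 10 * ((u.1 : ℝ) / 2 ^ 10)) ^ 2 ≤ B ^ 2) :
    ‖pnt10 u ^ 2 - 25‖ ≤ B := by
  rw [sq]
  exact mul_bd u u hB h

/-- **(D1)** the size of `tau` on the path and on the polygon. -/
theorem tau_bd : (∀ s ∈ S1, ‖tau s‖ ≤ 189 / 4) ∧ (∀ s ∈ T1, ‖tau s‖ ≤ 189 / 4) := by
  constructor
  · rintro s (hs | hs)
    · exact tau_seg (sq_bd _ (by norm_num) (by norm_num)) (sq_bd _ (by norm_num) (by norm_num))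
        (mul_bd _ _ (by norm_num) (by norm_num)) s hs
    · exact tau_seg (sq_bd _ (by norm_num) (by norm_num)) (sq_bd _ (by norm_num) (by norm_num))
        (mul_bd _ _ (by norm_num) (by norm_num)) s hs
  · rintro s (hs | hs | hs)
    · exact tau_seg (sq_bd _ (by norm_num) (by norm_num)) (sq_bd _ (by norm_num) (by norm_num))
        (mul_bd _ _ (by norm_num) (by norm_num)) s hs
    · exact tau_seg (sq_bd _ (by norm_num) (by norm_num)) (sq_bd _ (by norm_num) (by norm_num))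
        (mul_bd _ _ (by norm_num) (by norm_num)) s hs
    · exact tau_seg (sq_bd _ (by norm_num) (by norm_num)) (sq_bd _ (by norm_num) (by norm_num))
        (mul_bd _ _ (by norm_num) (by norm_num)) s hs

theorem sub_bd (u v : ℤ × ℤ) {B : ℝ} (hB : 0 ≤ B)
    (h : ((v.1 : ℝ) / 2 ^ 10 - (u.1 : ℝ) / 2 ^ 10) ^ 2 +
      ((v.2 : ℝ) / 2 ^ 10 - (u.2 : ℝ) / 2 ^ 10) ^ 2 ≤ B ^ 2) :
    ‖pnt10 v - pnt10 u‖ ≤ B := by
  apply norm_le_of_sq hB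
  rw [Complex.sub_re, Complex.sub_im, pnt10_re, pnt10_re, pnt10_im, pnt10_im]
  exact h

/-- **(D2)** the lengths. -/
theorem len_bd : 2 * Path_len l1 + Path_len l2 / (2 * Real.pi) ≤ 22 / 3 := by
  have a1 : ‖pnt10 (0, 1331) - pnt10 (0, 0)‖ ≤ 1.2999 := sub_bd _ _ (by norm_num) (by norm_num)
  have a2 : ‖pnt10 (-1024, 2048) - pnt10 (0, 1331)‖ ≤ 1.2208 :=
    sub_bd _ _ (by norm_num) (by norm_num)
  have b1 : ‖pnt10 (7680, 2560) - pnt10 (8704, 0)‖ ≤ 2.6926 := sub_bd _ _ (by norm_num) (by norm_num)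
  have b2 : ‖pnt10 (3072, 4608) - pnt10 (7680, 2560)‖ ≤ 4.9245 :=
    sub_bd _ _ (by norm_num) (by norm_num)
  have b3 : ‖pnt10 (-2048, 0) - pnt10 (3072, 4608)‖ ≤ 6.7269 :=
    sub_bd _ _ (by norm_num) (by norm_num)
  have e1 : Path_len l1 ≤ 2.5207 := by
    have : Path_len l1 = ‖pnt10 (0, 1331) - pnt10 (0, 0)‖ +
        (‖pnt10 (-1024, 2048) - pnt10 (0, 1331)‖ + 0) := rfl
    rw [this]
    linarith only [a1, a2]
  have e2 : Path_len l2 ≤ 14.344 := by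
    have : Path_len l2 = ‖pnt10 (7680, 2560) - pnt10 (8704, 0)‖ +
        (‖pnt10 (3072, 4608) - pnt10 (7680, 2560)‖ +
          (‖pnt10 (-2048, 0) - pnt10 (3072, 4608)‖ + 0)) := rfl
    rw [this]
    linarith only [b1, b2, b3]
  have hpi := Real.pi_gt_d4
  have e3 : Path_len l2 / (2 * Real.pi) ≤ 2.2831 := by
    rw [div_le_iff₀ (by positivity)]
    linarith only [e2, hpi]
  linarith only [e1, e3]

end Vale.Agent.P021.H45
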