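import Vale.Agent.P021.Bdl.B3

/-!
# The arithmetic lower bound with few small primes, and the explicit small terms
-/

namespace Vale.Agent.P021.H45

open Vale.Agent.P021 Vale.Agent.P021.Det Finset

theorem tot_210 : Nat.totient 210 = 48 := by decide +kernel

theorem pc_211 : Nat.primeCounting' 211 = 46 := by decide +kernel

theorem pc_le (N : ℕ) : ((Nat.primeCounting' N : ℕ) : ℝ) ≤ 48 / 210 * N + 46 := by
  rcases le_or_gt N 211 with h | h
  · have h1 : Nat.primeCounting' N ≤ 46 := by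
      rw [← pc_211]
      exact Nat.monotone_primeCounting' h
    have h2 : ((Nat.primeCounting' N : ℕ) : ℝ) ≤ 46 := by exact_mod_cast h1
    have h3 : (0 : ℝ) ≤ N := Nat.cast_nonneg _
    linarith only [h2, h3]
  · obtain ⟨n, rfl⟩ : ∃ n, N = 211 + n := ⟨N - 211, by omega⟩
    have h1 := Nat.primeCounting'_add_le (a := 210) (k := 211) (by norm_num) (by norm_num) n
    rw [pc_211, tot_210] at h1
    have h2 : ((Nat.primeCounting' (211 + n) : ℕ) : ℝ) ≤ 46 + 48 * (((n / 210 : ℕ) : ℝ) + 1) := by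
      exact_mod_cast h1
    have h3 : ((n / 210 : ℕ) : ℝ) ≤ (n : ℝ) / 210 := by
      have := Nat.cast_div_le (α := ℝ) (m := n) (n := 210)
      simpa using this
    push_cast
    linarith only [h2, h3]

theorem count_le (R : ℕ) : ((#(((Ioc 0 R).filter Nat.Prime).filter
    (fun x => x ^ 2 ≤ R ∨ x < 7)) : ℕ) : ℝ) ≤ 48 / 210 * Real.sqrt R + 50 := by
  have h4 : (((Ioc 0 R).filter Nat.Prime).filter (fun x => x ^ 2 ≤ R ∨ x < 7)) ⊆
      (range (Nat.sqrt R + 7)).filter Nat.Prime := by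
    intro x hx
    rw [Finset.mem_filter, Finset.mem_filter] at hx
    rw [Finset.mem_filter, Finset.mem_range]
    refine ⟨?_, hx.1.2⟩
    rcases hx.2 with h | h
    · have : x ≤ Nat.sqrt R := Nat.le_sqrt'.2 h
      omega
    · omega
  have h5 := card_le_card h4
  have h6 : #((range (Nat.sqrt R + 7)).filter Nat.Prime) =
      Nat.primeCounting' (Nat.sqrt R + 7) := by
    rw [Nat.primeCounting', Nat.count_eq_card_filter_range]
  rw [h6] at h5
  have h7 := pc_le (Nat.sqrt R + 7)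
  have h8 : ((Nat.sqrt R : ℕ) : ℝ) ≤ Real.sqrt R := Real.nat_sqrt_le_real_sqrt
  have h9 : ((#(((Ioc 0 R).filter Nat.Prime).filter (fun x => x ^ 2 ≤ R ∨ x < 7)) : ℕ) : ℝ) ≤
      ((Nat.primeCounting' (Nat.sqrt R + 7) : ℕ) : ℝ) := by exact_mod_cast h5
  push_cast at h7
  linarith only [h7, h8, h9]

/-- the lower bound: the window sum runs over primes with `l^2 > rng` only, and the crude bound is
used for at most `48/210 sqrt(rng) + 50` primes -/
theorem log_NN_geC (u : ℕ → ℝ) (a b m K : ℕ) (p q : ℤ) (hu : ∀ l, 0 ≤ u l)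
    (hloc : ∀ l : ℕ, l.Prime → 7 ≤ l → rng a b m K < l ^ 2 →
      ∃ e : ℕ, padicNorm l (NN a b m K p q) ≤ (l : ℚ) ^ e ∧ (e : ℝ) ≤ u l)
    (hN : NN a b m K p q ≠ 0) :
    -(∑ l ∈ (Ioc 0 (rng a b m K)).filter (fun l => l.Prime ∧ rng a b m K < l ^ 2),
        u l * Real.log l +
      (48 / 210 * Real.sqrt (rng a b m K) + 50) * ((K : ℝ) * Real.log (rng a b m K)) +
      T2 b m K + T5 a b m K) ≤ Real.log |((NN a b m K p q : ℚ) : ℝ)| := by
  set w : ℕ → ℝ := fun l => if rng a b m K < l ^ 2 then u l else 0 with hw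
  have hw0 : ∀ l, 0 ≤ w l := by
    intro l
    simp only [hw]
    split_ifs
    · exact hu l
    · exact le_rfl
  have hlocw : ∀ l : ℕ, l.Prime → 7 ≤ l → rng a b m K < l ^ 2 →
      ∃ e : ℕ, padicNorm l (NN a b m K p q) ≤ (l : ℚ) ^ e ∧ (e : ℝ) ≤ w l := by
    intro l hl h7 hr
    obtain ⟨e, h1, h2⟩ := hloc l hl h7 hr
    refine ⟨e, h1, ?_⟩
    simp only [hw]
    rw [if_pos hr]
    exact h2
  have h1 := log_abs_ge (NN a b m K p q) hN (rng a b m K) (betG w a b m K)
    (fun l hl _ => log_norm_leG w a b m K p q hw0 hlocw hN l hl)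
    (fun l hl hR => by
      have hR5 : 5 ≤ rng a b m K := by unfold rng; (clear * -; omega)
      have : 7 ≤ l := by
        have h6 : l ≠ 6 := by rintro rfl; exact absurd hl (by norm_num)
        omega
      exact local_big a b m K p q l hl this hR)
  refine le_trans ?_ h1
  rw [neg_le_neg_iff]
  unfold betG
  rw [sum_add_distrib, sum_add_distrib, sum_add_distrib]
  have hR5 : 5 ≤ rng a b m K := by unfold rng; omega
  have e2 : ∑ x ∈ (Ioc 0 (rng a b m K)).filter Nat.Prime, (if x = 2 then T2 b m K else 0) =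
      T2 b m K := by
    rw [sum_ite_eq', if_pos]
    rw [Finset.mem_filter, mem_Ioc]
    exact ⟨⟨by norm_num, by omega⟩, Nat.prime_two⟩
  have e5 : ∑ x ∈ (Ioc 0 (rng a b m K)).filter Nat.Prime, (if x = 5 then T5 a b m K else 0) =
      T5 a b m K := by
    rw [sum_ite_eq', if_pos]
    rw [Finset.mem_filter, mem_Ioc]
    exact ⟨⟨by norm_num, by omega⟩, Nat.prime_five⟩
  rw [e2, e5]
  have hKR : 0 ≤ (K : ℝ) * Real.log (rng a b m K) := by
    have := Real.log_natCast_nonneg (rng a b m K)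
    (clear * -; positivity)
  have h3 : ∑ x ∈ (Ioc 0 (rng a b m K)).filter Nat.Prime,
      (if x ^ 2 ≤ rng a b m K ∨ x < 7 then (K : ℝ) * Real.log (rng a b m K) else 0) ≤
      (48 / 210 * Real.sqrt (rng a b m K) + 50) * ((K : ℝ) * Real.log (rng a b m K)) := by
    rw [← sum_filter, sum_const, nsmul_eq_mul]
    exact mul_le_mul_of_nonneg_right (count_le _) hKR
  have h4 : ∑ x ∈ (Ioc 0 (rng a b m K)).filter Nat.Prime, w x * Real.log x =
      ∑ l ∈ (Ioc 0 (rng a b m K)).filter (fun l => l.Prime ∧ rng a b m K < l ^ 2),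
        u l * Real.log l := by
    rw [← filter_filter, sum_filter (fun l => rng a b m K < l ^ 2)]
    refine sum_congr rfl fun x _ => ?_
    simp only [hw]
    split_ifs
    · rfl
    · rw [zero_mul]
  rw [h4]
  linarith only [h3]

/-! ### numbers -/

theorem log5_le : Real.log 5 ≤ 1.60952 := by
  have h1 : (5 : ℝ) ^ 59 ≤ 2 ^ 137 := by norm_num
  have h2 := Real.log_le_log (by positivity) h1
  rw [Real.log_pow, Real.log_pow] at h2
  have h3 := Real.log_two_lt_d9
  push_cast at h2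
  linarith only [h2, h3]

theorem log_top : Real.log 2176080 ≤ 14.595 := by
  have e : (2176080 : ℝ) = 2 ^ 21 * (2176080 / 2 ^ 21) := by norm_num
  have h1 := Real.log_le_sub_one_of_pos (by norm_num : (0 : ℝ) < 2176080 / 2 ^ 21)
  have h3 := Real.log_two_lt_d9
  rw [e, Real.log_mul (by norm_num) (by norm_num), Real.log_pow]
  norm_num at h1 ⊢
  linarith only [h1, h3]

theorem sqrt_top : Real.sqrt 2176080 ≤ 1475.2 := by
  rw [Real.sqrt_le_left (by norm_num)]
  norm_num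

/-- the crude term -/
theorem crude_le {R : ℝ} {n κ : ℕ} (hn : 80 ≤ n) (hκ : κ ≤ 2) (hR : 1 ≤ R) (hR2 : R ≤ 27201 * n) :
    (48 / 210 * Real.sqrt R + 50) * (((1000 * n + κ : ℕ) : ℝ) * Real.log R) ≤
      70652 * (n : ℝ) ^ 2 := by
  have hnR : (80 : ℝ) ≤ n := by exact_mod_cast hn
  have hκR : (κ : ℝ) ≤ 2 := by exact_mod_cast hκ
  obtain ⟨s, hs⟩ : ∃ s : ℝ, s = Real.sqrt (n / 80) := ⟨_, rfl⟩
  have hs1 : 1 ≤ s := by
    rw [hs]
    exact Real.one_le_sqrt.2 (by linarith only [hnR])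
  have hs2 : s ^ 2 = n / 80 := by
    rw [hs]
    exact Real.sq_sqrt (by positivity)
  have e1 : (27201 : ℝ) * n = 2176080 * s ^ 2 := by rw [hs2]; ring
  have h1 : Real.sqrt R ≤ 1475.2 * s := by
    calc Real.sqrt R ≤ Real.sqrt (2176080 * s ^ 2) := Real.sqrt_le_sqrt (by rw [← e1]; exact hR2)
      _ = Real.sqrt 2176080 * s := by
        rw [Real.sqrt_mul (by norm_num), Real.sqrt_sq (by linarith only [hs1])]
      _ ≤ 1475.2 * s := mul_le_mul_of_nonneg_right sqrt_top (by linarith only [hs1])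
  have h2 : Real.log R ≤ 12.595 + 2 * s := by
    have h3 : Real.log R ≤ Real.log (2176080 * s ^ 2) :=
      Real.log_le_log (by linarith only [hR]) (by rw [← e1]; exact hR2)
    rw [Real.log_mul (by norm_num) (by positivity), Real.log_pow] at h3
    have h4 := Real.log_le_sub_one_of_pos (by linarith only [hs1] : 0 < s)
    have h5 := log_top
    push_cast at h3
    linarith only [h3, h4, h5]
  have h0 : 0 ≤ Real.log R := Real.log_nonneg hR
  have h6 : ((1000 * n + κ : ℕ) : ℝ) ≤ 1000.025 * n := by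
    push_cast
    linarith only [hnR, hκR]
  have h7 : 48 / 210 * Real.sqrt R + 50 ≤ 337.2 * s + 50 := by linarith only [h1, hs1]
  have h8 : ((1000 * n + κ : ℕ) : ℝ) * Real.log R ≤ (1000.025 * n) * (12.595 + 2 * s) :=
    mul_le_mul h6 h2 h0 (by positivity)
  have h9 : (337.2 * s + 50) * (12.595 + 2 * s) ≤ 5652 * s ^ 2 := by
    nlinarith only [hs1]
  calc (48 / 210 * Real.sqrt R + 50) * (((1000 * n + κ : ℕ) : ℝ) * Real.log R)
      ≤ (337.2 * s + 50) * ((1000.025 * n) * (12.595 + 2 * s)) :=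
        mul_le_mul h7 h8 (by positivity) (by positivity)
    _ = (1000.025 * n) * ((337.2 * s + 50) * (12.595 + 2 * s)) := by ring
    _ ≤ (1000.025 * n) * (5652 * s ^ 2) := mul_le_mul_of_nonneg_left h9 (by positivity)
    _ = (1000.025 * 5652 / 80) * (n : ℝ) ^ 2 := by rw [hs2]; ring
    _ ≤ 70652 * (n : ℝ) ^ 2 := mul_le_mul_of_nonneg_right (by norm_num) (by positivity)

/-- **(C1)** all terms but the window sum, for `n` at least `80` -/
theorem lower_small (n κ : ℕ) (hn : 80 ≤ n) (hκ : κ ≤ 2) (p q : ℤ) (hq : 0 < q)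
    (hdet : (HM ((p : ℝ) / q) (1200 * n) (2600 * n) (5200 * n) (1000 * n + κ)).det ≠ 0) :
    84500 * (n : ℝ) ^ 2 -
      ∑ l ∈ (Ioc 0 (rng (1200 * n) (2600 * n) (5200 * n) (1000 * n + κ))).filter
        (fun l => l.Prime ∧ rng (1200 * n) (2600 * n) (5200 * n) (1000 * n + κ) < l ^ 2),
        (bad3R ((1200 * n : ℕ) : ℝ) ((2600 * n : ℕ) : ℝ) ((5200 * n : ℕ) : ℝ)
          ((1000 * n + κ : ℕ) : ℝ) l + 8) * Real.log l ≤
      Real.log ((q : ℝ) ^ (1000 * n + κ) *
        |(HM ((p : ℝ) / q) (1200 * n) (2600 * n) (5200 * n) (1000 * n + κ)).det|) := by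
  have hnR : (80 : ℝ) ≤ n := by exact_mod_cast hn
  have hκR : (κ : ℝ) ≤ 2 := by exact_mod_cast hκ
  have hqR : (0 : ℝ) < q := by exact_mod_cast hq
  have hNN := NN_eq (1200 * n) (2600 * n) (5200 * n) (1000 * n + κ) p q hq
  have hNNR : ((NN (1200 * n) (2600 * n) (5200 * n) (1000 * n + κ) p q : ℚ) : ℝ) ≠ 0 := by
    rw [hNN]
    exact mul_ne_zero (pow_pos (by linarith only [hqR]) _).ne' hdet
  have hNN0 : NN (1200 * n) (2600 * n) (5200 * n) (1000 * n + κ) p q ≠ 0 := by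
    exact_mod_cast hNNR
  have h3 := log_NN_geC (fun l => bad3R ((1200 * n : ℕ) : ℝ) ((2600 * n : ℕ) : ℝ)
      ((5200 * n : ℕ) : ℝ) ((1000 * n + κ : ℕ) : ℝ) l + 8) _ _ _ _ p q
    (fun l => by
      have := bad3R_nonneg (a := ((1200 * n : ℕ) : ℝ)) (b := ((2600 * n : ℕ) : ℝ))
        (m := ((5200 * n : ℕ) : ℝ)) (K := ((1000 * n + κ : ℕ) : ℝ)) (l := (l : ℝ))
        (Nat.cast_nonneg _)
      linarith only [this])
    (fun l hl h7 hr => local_odd3 _ _ _ _ p q l hl h7 hr) hNN0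
  have h5 := T5_le 1000 1200 2600 5200 n κ
  have h6 := T2_le 1000 2600 5200 n κ hκ
  have h7 := rng_le 1000 1200 2600 5200 n κ (by omega) hκ
  have hX : XR 1000 1200 2600 5200 = 27201 := by unfold XR; norm_num
  rw [hX] at h7
  have hrng1 : (1 : ℝ) ≤ rng (1200 * n) (2600 * n) (5200 * n) (1000 * n + κ) := by
    have : 1 ≤ rng (1200 * n) (2600 * n) (5200 * n) (1000 * n + κ) := by unfold rng; omega
    exact_mod_cast this
  have h8 := crude_le hn hκ hrng1 h7
  have hlogeq := log_NN_eq (1200 * n) (2600 * n) (5200 * n) (1000 * n + κ) p q hq hdet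
  rw [hlogeq] at h3
  have e5 : (((5200 - (1200 + 2600) : ℕ) : ℝ)) = 1400 := by norm_num
  rw [e5] at h5
  have l5 := log5_le
  have l2 := Real.log_two_gt_d9
  have l2' := Real.log_two_lt_d9
  have l50 : 0 ≤ Real.log 5 := Real.log_nonneg (by norm_num)
  have h5' : T5 (1200 * n) (2600 * n) (5200 * n) (1000 * n + κ) ≤ 1577360 * (n : ℝ) ^ 2 := by
    have t1 : (1400 : ℝ) ^ 2 / 2 * Real.log 5 * n ^ 2 ≤ 1577330 * (n : ℝ) ^ 2 :=
      mul_le_mul_of_nonneg_right (by linarith only [l5]) (by positivity)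
    have t2 : ((1400 : ℝ) * n + 1) * Real.log 5 ≤ (1401 * n) * 1.60952 :=
      mul_le_mul (by linarith only [hnR]) l5 l50 (by positivity)
    have t3 : (1401 * (n : ℝ)) * 1.60952 ≤ 30 * (n : ℝ) ^ 2 := by nlinarith only [hnR]
    linarith only [h5, t1, t2, t3]
  have h6' : T2 (2600 * n) (5200 * n) (1000 * n + κ) ≤ -(1732615 * (n : ℝ) ^ 2) := by
    push_cast at h6
    have t1 : -(5 / 2 * (1000 : ℝ) * (2 * 2600 + 1000 - 5200) * Real.log 2) * (n : ℝ) ^ 2 ≤
        -1732867 * (n : ℝ) ^ 2 :=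
      mul_le_mul_of_nonneg_right (by linarith only [l2]) (by positivity)
    have t2 : 5 / 2 * Real.log 2 * ((2 * 5200 + 1000) * (n : ℝ) + 2) ≤ 252 * (n : ℝ) ^ 2 := by
      have t3 : 5 / 2 * Real.log 2 * ((2 * 5200 + 1000) * (n : ℝ) + 2) ≤
          1.733 * ((2 * 5200 + 1000) * (n : ℝ) + 2) :=
        mul_le_mul_of_nonneg_right (by linarith only [l2']) (by positivity)
      nlinarith only [t3, hnR]
    linarith only [h6, t1, t2]
  have hK : ((1000 * n + κ : ℕ) : ℝ) * Real.log 2 ≤ 10 * (n : ℝ) ^ 2 := by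
    have t1 : ((1000 * n + κ : ℕ) : ℝ) ≤ 1001 * n := by push_cast; linarith only [hnR, hκR]
    have t2 : ((1000 * n + κ : ℕ) : ℝ) * Real.log 2 ≤ 1001 * n * 0.7 :=
      mul_le_mul t1 (by linarith only [l2']) (by linarith only [l2]) (by positivity)
    nlinarith only [t2, hnR]
  have h00 : 0 ≤ (n : ℝ) ^ 2 := by positivity
  linarith only [h3, h8, h5', h6', hK, h00]

end Vale.Agent.P021.H45
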